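import Vale.Agent.P171.Bridge

open MeasureTheory Filter Topology

namespace Vale.Agent.Results.P171.PhaseTransition

/-- `ℝ³` with the Euclidean norm. -/
abbrev R3 := EuclideanSpace ℝ (Fin 3)

/-- `U_N(x₁,…,x_N) = ∑_{i<j} φ(|x_i - x_j|)`. -/
noncomputable def energy (φ : ℝ → ℝ) {N : ℕ} (x : Fin N → R3) : ℝ :=
  ∑ i : Fin N, ∑ j ∈ Finset.Ioi i, φ (dist (x i) (x j))

/-- `Λ_L^N`, where `Λ_L = [0,L]³`. -/
def boxN (L : ℝ) (N : ℕ) : Set (Fin N → R3) := {x | ∀ i k, 0 ≤ x i k ∧ x i k ≤ L}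

/-- `Z_{L,N}(β) = (1/N!) ∫_{Λ_L^N} exp(-β U_N) dx₁⋯dx_N`. -/
noncomputable def Z (φ : ℝ → ℝ) (β L : ℝ) (N : ℕ) : ℝ :=
  ((N.factorial : ℕ) : ℝ)⁻¹ * ∫ x in boxN L N, Real.exp (-β * energy φ x)

/-- The grand canonical partition function `∑_N z^N Z_{L,N}(β)`. -/
noncomputable def grand (φ : ℝ → ℝ) (β z L : ℝ) : ℝ := ∑' N : ℕ, z ^ N * Z φ β L N

/-- Stability: `U_N ≥ -B N` for all configurations of distinct points. -/
def Stable (φ : ℝ → ℝ) : Prop :=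
  ∃ B : ℝ, ∀ (N : ℕ) (x : Fin N → R3), Function.Injective x → -B * N ≤ energy φ x

/-- Temperedness: `φ(r) ≤ C r^(-3-ε)` for `r ≥ R₀`. -/
def Tempered (φ : ℝ → ℝ) : Prop :=
  ∃ C ε R₀ : ℝ, 0 < C ∧ 0 < ε ∧ 0 < R₀ ∧ ∀ r : ℝ, R₀ ≤ r → φ r ≤ C * r ^ (-3 - ε)

/-- Local boundedness on `(0,∞)`. -/
def LocallyBounded (φ : ℝ → ℝ) : Prop :=
  ∀ a b : ℝ, 0 < a → ∃ M : ℝ, ∀ r : ℝ, a ≤ r → r ≤ b → |φ r| ≤ M

/-- `p(z) = Π(β,z) = lim_{L → ∞} L^{-3} log ∑_N z^N Z_{L,N}(β)` for all `z > 0`, where all the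
integrals and all the sums involved are (absolutely) convergent. -/
def IsPressure (φ : ℝ → ℝ) (β : ℝ) (p : ℝ → ℝ) : Prop :=
  ∀ z : ℝ, 0 < z →
    (∀ L : ℝ, 0 < L → (∀ N : ℕ, IntegrableOn (fun x : Fin N → R3 => Real.exp (-β * energy φ x))
        (boxN L N)) ∧ Summable fun N : ℕ => z ^ N * Z φ β L N) ∧
    Tendsto (fun L : ℝ => (L ^ 3)⁻¹ * Real.log (grand φ β z L)) atTop (𝓝 (p z))

/-- Phase transition in the sense (a): for some `β > 0` the function `z ↦ Π(β,z)` is not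
differentiable at some point `z > 0`. -/
def HasPhaseTransition (φ : ℝ → ℝ) : Prop :=
  ∃ β : ℝ, 0 < β ∧ ∃ p : ℝ → ℝ, IsPressure φ β p ∧ ∃ z : ℝ, 0 < z ∧ ¬ DifferentiableAt ℝ p z

/-- There is a stable, tempered radial pair potential on `ℝ³`, Borel measurable and locally bounded
(indeed bounded, and with `x ↦ φ(|x|)` integrable), that has a phase transition. -/
theorem result : ∃ φ : ℝ → ℝ, Measurable φ ∧ LocallyBounded φ ∧ Stable φ ∧ Tempered φ ∧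
    (∃ M : ℝ, ∀ r : ℝ, |φ r| ≤ M) ∧ Integrable (fun x : R3 => φ ‖x‖) ∧ HasPhaseTransition φ := by
  refine ⟨Vale.Agent.P171.phi, Vale.Agent.P171.phi_measurable,
    fun a b _ => ⟨_, fun r _ _ => Vale.Agent.P171.phi_abs_le r⟩,
    ⟨Vale.Agent.P171.AA / 2, fun N x _ => Vale.Agent.P171.phi_stable x⟩,
    ⟨1, 1, 3, one_pos, one_pos, by norm_num, fun r hr => ?_⟩,
    ⟨_, Vale.Agent.P171.phi_abs_le⟩, Vale.Agent.P171.phi_integrable, ?_⟩
  · refine (Vale.Agent.P171.phi_nonpos hr).trans ?_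
    have : 0 ≤ r := by linarith
    positivity
  · refine ⟨1, one_pos, fun z => Vale.Agent.P171.Pi_ (Real.log z), fun z hz => ⟨fun L hL =>
      ⟨fun N => ?_, ?_⟩, ?_⟩, Vale.Agent.P171.not_differentiable⟩
    · exact Vale.Agent.P171.integrableOn_bridge L hL.le N
    · exact Vale.Agent.P171.summable_bridge hz hL.le
    · exact Vale.Agent.P171.limit_bridge hz

end Vale.Agent.Results.P171.PhaseTransition
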